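import Mathlib

namespace Vale.Agent.P028

open Finset
open scoped Classical

/-- number of integers in a real interval of length `2 L` -/
lemma card_Icc_le (lo hi : ℝ) (h : lo ≤ hi + 1) :
    ((Finset.Icc ⌈lo⌉ ⌊hi⌋).card : ℝ) ≤ hi - lo + 1 := by
  rw [Int.card_Icc]
  have h1 : (⌊hi⌋ : ℝ) ≤ hi := Int.floor_le hi
  have h2 : lo ≤ (⌈lo⌉ : ℝ) := Int.le_ceil lo
  by_cases hc : 0 ≤ ⌊hi⌋ + 1 - ⌈lo⌉
  · have : ((⌊hi⌋ + 1 - ⌈lo⌉).toNat : ℝ) = ((⌊hi⌋ + 1 - ⌈lo⌉ : ℤ) : ℝ) := by
      have := Int.toNat_of_nonneg hc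
      exact_mod_cast this
    rw [this]
    push_cast
    linarith
  · have : (⌊hi⌋ + 1 - ⌈lo⌉).toNat = 0 := by
      apply Int.toNat_of_nonpos
      omega
    rw [this]
    simp
    linarith

lemma count_real (q q' : ℕ) (hq : 0 < q) (hq' : 0 < q') (t0 ε : ℝ) (hε : 0 ≤ ε) :
    (((Finset.range q').filter
      (fun j : ℕ => ∃ a : ℤ, |t0 + (j : ℝ) * q / q' - a| ≤ ε)).card : ℝ)
      ≤ 2 * ε * q' + Nat.gcd q q' := by

  set g := Nat.gcd q q' with hg
  have hgpos : 0 < g := Nat.gcd_pos_of_pos_left _ hq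
  obtain ⟨k, hk⟩ : g ∣ q := Nat.gcd_dvd_left q q'
  obtain ⟨r, hr⟩ : g ∣ q' := Nat.gcd_dvd_right q q'
  have hrpos : 0 < r := by
    rcases Nat.eq_zero_or_pos r with h | h
    · rw [h] at hr; omega
    · exact h
  have hcop : Nat.Coprime k r := by
    have := Nat.coprime_div_gcd_div_gcd (m := q) (n := q') hgpos
    rw [← hg] at this
    have e1 : q / g = k := by rw [hk]; exact Nat.mul_div_cancel_left k hgpos
    have e2 : q' / g = r := by rw [hr]; exact Nat.mul_div_cancel_left r hgpos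
    rwa [e1, e2] at this
  set J := (Finset.range q').filter
      (fun j : ℕ => ∃ a : ℤ, |t0 + (j : ℝ) * q / q' - a| ≤ ε) with hJ
  let a : ℕ → ℤ := fun j => if h : ∃ a : ℤ, |t0 + (j : ℝ) * q / q' - a| ≤ ε then h.choose else 0
  have ha : ∀ j ∈ J, |t0 + (j : ℝ) * q / q' - a j| ≤ ε := by
    intro j hj
    have h := (Finset.mem_filter.1 hj).2
    simp only [a, dif_pos h]
    exact h.choose_spec
  let m : ℕ → ℤ := fun j => (k : ℤ) * j - a j * r
  let lo : ℝ := -(ε * r) - t0 * r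
  let hi : ℝ := ε * r - t0 * r
  have hrR : (0 : ℝ) < r := by exact_mod_cast hrpos
  have hgR : (0 : ℝ) < g := by exact_mod_cast hgpos
  have hm : ∀ j ∈ J, |t0 * r + (m j : ℝ)| ≤ ε * r := by
    intro j hj
    have h := ha j hj
    have e : t0 + (j : ℝ) * q / q' - a j = (t0 * r + (m j : ℝ)) / r := by
      have hqR : (q : ℝ) = g * k := by exact_mod_cast hk
      have hq'R : (q' : ℝ) = g * r := by exact_mod_cast hr
      simp only [m]
      push_cast
      rw [hqR, hq'R]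
      field_simp
      ring
    rw [e, abs_div, abs_of_pos hrR, div_le_iff₀ hrR] at h
    exact h
  have hcard : J.card ≤ ((Finset.Icc ⌈lo⌉ ⌊hi⌋) ×ˢ (Finset.range g)).card := by
    apply Finset.card_le_card_of_injOn (fun j => (m j, j / r))
    · intro j hj
      have hj' : j ∈ J := hj
      have h := abs_le.1 (hm j hj')
      have hjq : j < q' := Finset.mem_range.1 (Finset.mem_filter.1 hj').1
      simp only [Finset.coe_product, Set.mem_prod, Finset.mem_coe, Finset.mem_Icc,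
        Finset.mem_range]
      refine ⟨⟨?_, ?_⟩, ?_⟩
      · apply Int.ceil_le.2
        simp only [lo]; linarith [h.1]
      · apply Int.le_floor.2
        simp only [hi]; linarith [h.2]
      · rw [Nat.div_lt_iff_lt_mul hrpos]
        rw [hr] at hjq
        exact hjq
    · intro j hj j' hj' hEq
      simp only [Prod.mk.injEq] at hEq
      obtain ⟨h1, h2⟩ := hEq
      simp only [m] at h1
      have h3 : (r : ℤ) ∣ (k : ℤ) * ((j : ℤ) - j') := by
        refine ⟨a j - a j', ?_⟩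
        linarith
      have hcopZ : IsCoprime (r : ℤ) (k : ℤ) := by
        exact (Nat.isCoprime_iff_coprime.2 hcop).symm
      have h4 : (r : ℤ) ∣ ((j : ℤ) - j') := hcopZ.dvd_of_dvd_mul_left h3
      have h5 : (j' : ℤ) ≡ j [ZMOD r] := (Int.modEq_iff_dvd).2 h4
      have h6 : j' ≡ j [MOD r] := (Int.natCast_modEq_iff).1 h5
      have h7 : j' % r = j % r := h6
      rw [← Nat.div_add_mod j r, ← Nat.div_add_mod j' r, h2, h7]
  have hc2 : ((Finset.Icc ⌈lo⌉ ⌊hi⌋).card : ℝ) ≤ hi - lo + 1 := by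
    apply card_Icc_le
    simp only [lo, hi]
    nlinarith [mul_nonneg hε hrR.le]
  have hq'R : (q' : ℝ) = g * r := by exact_mod_cast hr
  calc (J.card : ℝ) ≤ (((Finset.Icc ⌈lo⌉ ⌊hi⌋) ×ˢ (Finset.range g)).card : ℝ) := by
        exact_mod_cast hcard
    _ = ((Finset.Icc ⌈lo⌉ ⌊hi⌋).card : ℝ) * g := by
        rw [Finset.card_product, Finset.card_range]; push_cast; ring
    _ ≤ (hi - lo + 1) * g := by
        apply mul_le_mul_of_nonneg_right hc2 hgR.le
    _ = 2 * ε * q' + g := by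
        simp only [lo, hi]; rw [hq'R]; ring

end Vale.Agent.P028
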