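import Vale.Agent.P028.Sum

namespace Vale.Agent.P028

open Finset MeasureTheory Filter
open scoped Classical ENNReal

/-- circle version -/
lemma circle_full (w : ℕ → ℝ) (hw0 : ∀ q, 0 ≤ w q) (hw1 : ∀ q, w q ≤ 1) (hw00 : w 0 = 0)
    (c : ℕ → UnitAddCircle) (C : ℝ)
    (hC : ∀ j, 0 < w j →
      ∑ i ∈ (Finset.range j).filter (fun i => 0 < i ∧ 0 < w i), (Nat.gcd i j : ℝ) ≤ C * j)
    (hdiv : ¬ Summable w) :
    ∀ᵐ x : UnitAddCircle, ∃ᶠ q : ℕ in atTop, 0 < w q ∧ x ∈ Ev q (c q) (w q / 2) := by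
  set μ : Measure UnitAddCircle := volume with hμ
  have hprob : IsProbabilityMeasure μ := ⟨UnitAddCircle.measure_univ⟩
  let E : ℕ → Set UnitAddCircle := fun q => Ev q (c q) (w q / 2)
  have hE : ∀ q, MeasurableSet (E q) := fun q => measurableSet_Ev _ _ _
  let U : ℕ → Set UnitAddCircle := fun M => ⋃ q, ⋃ (_ : M ≤ q ∧ 0 < w q), E q
  have hU : ∀ M, MeasurableSet (U M) := fun M =>
    MeasurableSet.iUnion fun q => MeasurableSet.iUnion fun _ => hE q
  set C' : ℝ := max C 0 with hC'
  set K : ℝ := 1 + 2 * C' with hK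
  have hC'0 : 0 ≤ C' := le_max_right _ _
  have hKpos : 0 < K := by rw [hK]; linarith
  have htend := (not_summable_iff_tendsto_nat_atTop_of_nonneg hw0).1 hdiv
  have key : ∀ M N, ∑ i ∈ Finset.Ico M N, w i
      ≤ (∑ i ∈ Finset.Ico M N, w i + K) * μ.real (U M) := by
    intro M N
    set T : Finset ℕ := (Finset.Ico M N).filter (fun q => 0 < w q) with hT
    have hTpos : ∀ q ∈ T, 0 < q := by
      intro q hq
      have := (Finset.mem_filter.1 hq).2
      rcases Nat.eq_zero_or_pos q with h | h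
      · rw [h, hw00] at this; exact absurd this (lt_irrefl _)
      · exact h
    have hsum : ∑ i ∈ T, w i = ∑ i ∈ Finset.Ico M N, w i := by
      apply Finset.sum_filter_of_ne
      intro x _ hx
      exact lt_of_le_of_ne (hw0 x) (Ne.symm hx)
    have hCT : ∀ j ∈ T, ∑ i ∈ T.filter (fun i => i < j), (Nat.gcd i j : ℝ) ≤ C' * j := by
      intro j hj
      have hwj := (Finset.mem_filter.1 hj).2
      have h1 : ∑ i ∈ T.filter (fun i => i < j), (Nat.gcd i j : ℝ)
          ≤ ∑ i ∈ (Finset.range j).filter (fun i => 0 < i ∧ 0 < w i), (Nat.gcd i j : ℝ) := by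
        apply Finset.sum_le_sum_of_subset_of_nonneg
        · intro i hi
          rw [Finset.mem_filter] at hi ⊢
          exact ⟨Finset.mem_range.2 hi.2, hTpos i hi.1, (Finset.mem_filter.1 hi.1).2⟩
        · intro i _ _
          exact Nat.cast_nonneg _
      refine h1.trans ((hC j hwj).trans ?_)
      exact mul_le_mul_of_nonneg_right (le_max_left _ _) (Nat.cast_nonneg _)
    have hds := double_sum w hw0 hw1 c T hTpos C' hCT
    have hreal : ∀ i ∈ T, μ.real (E i) = w i := by
      intro i hi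
      exact real_Ev i (hTpos i hi) (c i) (w i) (hw0 i) (hw1 i)
    have hsr : ∑ i ∈ T, μ.real (E i) = ∑ i ∈ T, w i := Finset.sum_congr rfl hreal
    have hul := union_lower μ E hE T K hKpos (by rw [hsr]; exact hds)
    rw [hsr, hsum] at hul
    refine hul.trans ?_
    apply mul_le_mul_of_nonneg_left
    · apply measureReal_mono _ (measure_ne_top μ (U M))
      · intro x hx
        simp only [Set.mem_iUnion] at hx
        obtain ⟨q, hq, hx⟩ := hx
        simp only [U, Set.mem_iUnion]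
        have hq' := Finset.mem_filter.1 hq
        exact ⟨q, ⟨(Finset.mem_Ico.1 hq'.1).1, hq'.2⟩, hx⟩
    · have : 0 ≤ ∑ i ∈ Finset.Ico M N, w i := Finset.sum_nonneg (fun i _ => hw0 i)
      linarith
  have hfull : ∀ M, μ (U M)ᶜ = 0 := by
    intro M
    rw [prob_compl_eq_zero_iff (hU M)]
    by_contra hne
    have hle : μ.real (U M) ≤ 1 := measureReal_le_one
    have hlt : μ.real (U M) < 1 := by
      refine lt_of_le_of_ne hle ?_
      intro h
      apply hne
      have h2 : (μ (U M)).toReal = 1 := h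
      have h3 := ENNReal.ofReal_toReal (measure_ne_top μ (U M))
      rw [h2] at h3
      simpa using h3.symm
    set m := μ.real (U M) with hm
    have hm0 : 0 ≤ m := measureReal_nonneg
    obtain ⟨N, hN1, hN2⟩ := ((tendsto_atTop.1 htend
      (∑ i ∈ Finset.range M, w i + K / (1 - m) + 1)).and (eventually_ge_atTop M)).exists
    have hsplit := Finset.sum_range_add_sum_Ico w hN2
    have hk := key M N
    set s := ∑ i ∈ Finset.Ico M N, w i with hs
    have h1m : 0 < 1 - m := by linarith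
    have h4 : s * (1 - m) ≤ K := by nlinarith
    have h5 : s ≤ K / (1 - m) := by rwa [le_div_iff₀ h1m]
    linarith
  have hall : ∀ᵐ x ∂μ, ∀ M, x ∈ U M := by
    rw [ae_all_iff]
    intro M
    exact hfull M
  filter_upwards [hall] with x hx
  rw [frequently_atTop]
  intro M
  have := hx M
  simp only [U, Set.mem_iUnion] at this
  obtain ⟨q, ⟨hq1, hq2⟩, hq3⟩ := this
  exact ⟨q, hq1, hq2, hq3⟩

lemma null_preimage (B : Set UnitAddCircle) (hB : volume B = 0) :
    volume {x : ℝ | (x : UnitAddCircle) ∈ B} = 0 := by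
  have h : ∀ n : ℤ, volume ({x : ℝ | (x : UnitAddCircle) ∈ B} ∩ Set.Ioc (n : ℝ) (n + 1)) = 0 := by
    intro n
    have := (AddCircle.measurePreserving_mk 1 (n : ℝ)).quasiMeasurePreserving.preimage_null hB
    rwa [Measure.restrict_apply' measurableSet_Ioc] at this
  have hU : {x : ℝ | (x : UnitAddCircle) ∈ B}
      = ⋃ n : ℤ, ({x : ℝ | (x : UnitAddCircle) ∈ B} ∩ Set.Ioc (n : ℝ) (n + 1)) := by
    rw [← Set.inter_iUnion, iUnion_Ioc_intCast, Set.inter_univ]
  rw [hU]
  exact measure_iUnion_null h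

lemma Ev_real (q : ℕ) (g ε x : ℝ) (h : (x : UnitAddCircle) ∈ Ev q (g : UnitAddCircle) ε) :
    ∃ a : ℤ, |(q : ℝ) * x - a - g| ≤ ε := by
  simp only [Ev, Set.mem_ofPred_eq, Metric.mem_closedBall, dist_eq_norm] at h
  have e : q • (x : UnitAddCircle) - (g : UnitAddCircle)
      = (((q : ℝ) * x - g : ℝ) : UnitAddCircle) := by
    rw [AddCircle.coe_sub, ← AddCircle.coe_nsmul]
    simp only [nsmul_eq_mul]
  rw [e, UnitAddCircle.norm_eq] at h
  refine ⟨round ((q : ℝ) * x - g), ?_⟩
  have : (q : ℝ) * x - (round ((q : ℝ) * x - g) : ℝ) - g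
      = (q : ℝ) * x - g - (round ((q : ℝ) * x - g) : ℝ) := by ring
  rw [this]
  exact h

theorem main (ψ : ℕ → ℝ) (hψ : ∀ q, 0 ≤ ψ q) (γ : ℕ → ℝ) (C : ℝ)
    (hC : ∀ q', 0 < ψ q' →
      (∑ q ∈ (Finset.range q').filter (fun q => 0 < q ∧ 0 < ψ q), (Nat.gcd q q' : ℝ)) ≤ C * q')
    (hdiv : ¬ Summable ψ) :
    ∀ᵐ x : ℝ, ∃ᶠ q : ℕ in Filter.atTop, ∃ a : ℤ, |(q : ℝ) * x - a - γ q| < ψ q := by
  let w : ℕ → ℝ := fun q => if q = 0 then 0 else min (ψ q) 1
  have hw0 : ∀ q, 0 ≤ w q := by
    intro q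
    simp only [w]
    split_ifs
    · exact le_refl _
    · exact le_min (hψ q) zero_le_one
  have hw1 : ∀ q, w q ≤ 1 := by
    intro q
    simp only [w]
    split_ifs
    · exact zero_le_one
    · exact min_le_right _ _
  have hw00 : w 0 = 0 := by simp [w]
  have hwψ : ∀ q, w q ≤ ψ q := by
    intro q
    simp only [w]
    split_ifs
    · exact hψ q
    · exact min_le_left _ _
  have hpos : ∀ q, 0 < q → (0 < w q ↔ 0 < ψ q) := by
    intro q hq
    simp only [w, if_neg hq.ne']
    constructor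
    · intro h
      exact lt_of_lt_of_le h (min_le_left _ _)
    · intro h
      exact lt_min h zero_lt_one
  have hCw : ∀ j, 0 < w j →
      ∑ i ∈ (Finset.range j).filter (fun i => 0 < i ∧ 0 < w i), (Nat.gcd i j : ℝ) ≤ C * j := by
    intro j hj
    have hjψ : 0 < ψ j := lt_of_lt_of_le hj (hwψ j)
    have : (Finset.range j).filter (fun i => 0 < i ∧ 0 < w i)
        = (Finset.range j).filter (fun i => 0 < i ∧ 0 < ψ i) := by
      apply Finset.filter_congr
      intro i _
      constructor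
      · rintro ⟨h1, h2⟩
        exact ⟨h1, (hpos i h1).1 h2⟩
      · rintro ⟨h1, h2⟩
        exact ⟨h1, (hpos i h1).2 h2⟩
    rw [this]
    exact hC j hjψ
  have hdivw : ¬ Summable w := by
    intro hs
    apply hdiv
    have ht := hs.tendsto_atTop_zero
    have hev : ∀ᶠ q in atTop, w q < 1 := ht.eventually (gt_mem_nhds zero_lt_one)
    apply Summable.of_norm_bounded_eventually_nat hs
    filter_upwards [hev, eventually_gt_atTop 0] with q hq hq0
    rw [Real.norm_of_nonneg (hψ q)]
    simp only [w, if_neg hq0.ne'] at hq ⊢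
    rcases le_total (ψ q) 1 with h | h
    · rw [min_eq_left h]
    · rw [min_eq_right h] at hq
      exact absurd hq (lt_irrefl _)
  have hcirc := circle_full w hw0 hw1 hw00 (fun q => (γ q : UnitAddCircle)) C hCw hdivw
  have hnull := null_preimage _ hcirc
  rw [ae_iff]
  refine measure_mono_null ?_ hnull
  intro x hx
  simp only [Set.mem_ofPred_eq, Set.mem_compl_iff] at hx ⊢
  intro hfr
  apply hx
  refine hfr.mono ?_
  rintro q ⟨hq1, hq2⟩
  obtain ⟨a, ha⟩ := Ev_real q (γ q) (w q / 2) x hq2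
  refine ⟨a, lt_of_le_of_lt ha ?_⟩
  have := hwψ q
  linarith

end Vale.Agent.P028
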