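import Vale.Agent.P028.Pair

namespace Vale.Agent.P028

open Finset MeasureTheory
open scoped Classical ENNReal

variable {Ω : Type*} [MeasurableSpace Ω]

/-- second moment inequality -/
lemma second_moment (μ : Measure Ω) [IsProbabilityMeasure μ] (E : ℕ → Set Ω)
    (hE : ∀ i, MeasurableSet (E i)) (T : Finset ℕ) (t : ℝ) :
    2 * t * ∑ i ∈ T, μ.real (E i)
      ≤ ∑ i ∈ T, ∑ j ∈ T, μ.real (E i ∩ E j) + t ^ 2 * μ.real (⋃ i ∈ T, E i) := by
  set U : Set Ω := ⋃ i ∈ T, E i with hU
  have hUm : MeasurableSet U := Finset.measurableSet_biUnion T (fun i _ => hE i)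
  let X : Ω → ℝ := fun x => ∑ i ∈ T, (E i).indicator (fun _ => (1 : ℝ)) x
  have hint : ∀ s : Set Ω, MeasurableSet s → Integrable (s.indicator (fun _ => (1 : ℝ))) μ := by
    intro s hs
    exact (integrable_const (1 : ℝ)).indicator hs
  have hval : ∀ s : Set Ω, MeasurableSet s → ∫ x, s.indicator (fun _ => (1 : ℝ)) x ∂μ = μ.real s := by
    intro s hs
    rw [integral_indicator hs]
    simp
  have hX1 : ∫ x, X x ∂μ = ∑ i ∈ T, μ.real (E i) := by
    simp only [X]
    rw [integral_finsetSum T (fun i _ => hint _ (hE i))]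
    exact Finset.sum_congr rfl (fun i _ => hval _ (hE i))
  have hXX : ∀ x, X x ^ 2 = ∑ i ∈ T, ∑ j ∈ T, (E i ∩ E j).indicator (fun _ => (1 : ℝ)) x := by
    intro x
    simp only [X]
    rw [sq, Finset.sum_mul_sum]
    apply Finset.sum_congr rfl
    intro i _
    apply Finset.sum_congr rfl
    intro j _
    by_cases h1 : x ∈ E i <;> by_cases h2 : x ∈ E j <;> simp [Set.indicator, h1, h2]
  have hX2 : ∫ x, X x ^ 2 ∂μ = ∑ i ∈ T, ∑ j ∈ T, μ.real (E i ∩ E j) := by
    simp_rw [hXX]
    rw [integral_finsetSum T]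
    · apply Finset.sum_congr rfl
      intro i _
      rw [integral_finsetSum T (fun j _ => hint _ ((hE i).inter (hE j)))]
      exact Finset.sum_congr rfl (fun j _ => hval _ ((hE i).inter (hE j)))
    · intro i _
      exact integrable_finsetSum T (fun j _ => hint _ ((hE i).inter (hE j)))
  have hXi : Integrable X μ := integrable_finsetSum T (fun i _ => hint _ (hE i))
  have hX2i : Integrable (fun x => X x ^ 2) μ := by
    simp_rw [hXX]
    exact integrable_finsetSum T (fun i _ =>
      integrable_finsetSum T (fun j _ => hint _ ((hE i).inter (hE j))))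
  have hpt : ∀ x, 2 * t * X x ≤ X x ^ 2 + t ^ 2 * U.indicator (fun _ => (1 : ℝ)) x := by
    intro x
    by_cases hx : x ∈ U
    · simp only [Set.indicator, hx, if_true]
      nlinarith [sq_nonneg (X x - t)]
    · have : X x = 0 := by
        simp only [X]
        apply Finset.sum_eq_zero
        intro i hi
        have : x ∉ E i := by
          intro h
          apply hx
          rw [hU]
          exact Set.mem_biUnion hi h
        simp [Set.indicator, this]
      simp [Set.indicator, hx, this]
  have := integral_mono (μ := μ) (hXi.const_mul (2 * t))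
    (hX2i.add ((hint U hUm).const_mul (t ^ 2))) hpt
  rw [integral_const_mul, hX1] at this
  refine this.trans (le_of_eq ?_)
  simp only [Pi.add_apply]
  rw [integral_add hX2i ((hint U hUm).const_mul (t ^ 2)), integral_const_mul, hX2, hval U hUm]

/-- lower bound for the measure of a finite union -/
lemma union_lower (μ : Measure Ω) [IsProbabilityMeasure μ] (E : ℕ → Set Ω)
    (hE : ∀ i, MeasurableSet (E i)) (T : Finset ℕ) (K : ℝ) (hK : 0 < K)
    (h : ∑ i ∈ T, ∑ j ∈ T, μ.real (E i ∩ E j)
      ≤ (∑ i ∈ T, μ.real (E i)) ^ 2 + K * ∑ i ∈ T, μ.real (E i)) :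
    ∑ i ∈ T, μ.real (E i) ≤ (∑ i ∈ T, μ.real (E i) + K) * μ.real (⋃ i ∈ T, E i) := by
  set s := ∑ i ∈ T, μ.real (E i) with hs
  have hs0 : 0 ≤ s := Finset.sum_nonneg (fun i _ => measureReal_nonneg)
  have h2 := second_moment μ E hE T (s + K)
  rw [← hs] at h2
  have h3 : (s + K) * s ≤ (s + K) * ((s + K) * μ.real (⋃ i ∈ T, E i)) := by nlinarith
  exact le_of_mul_le_mul_left h3 (by linarith)

end Vale.Agent.P028
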