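import Vale.Agent.P028.Count

namespace Vale.Agent.P028

open Finset MeasureTheory
open scoped Classical ENNReal

/-- the event: `q x` lies within `ε` of `c` on the circle -/
def Ev (q : ℕ) (c : UnitAddCircle) (ε : ℝ) : Set UnitAddCircle :=
  {x | q • x ∈ Metric.closedBall c ε}

lemma measurableSet_Ev (q : ℕ) (c : UnitAddCircle) (ε : ℝ) : MeasurableSet (Ev q c ε) := by
  have hc : Continuous fun x : UnitAddCircle => q • x := continuous_nsmul q
  exact (Metric.isClosed_closedBall.preimage hc).measurableSet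

lemma volume_Ev (q : ℕ) (hq : 0 < q) (c : UnitAddCircle) (ε : ℝ) :
    volume (Ev q c ε) = ENNReal.ofReal (min 1 (2 * ε)) := by
  have hn : (q : ℤ) ≠ 0 := by exact_mod_cast hq.ne'
  have h := (Measure.measurePreserving_zsmul (volume : Measure UnitAddCircle) hn).measure_preimage
    (s := Metric.closedBall c ε) measurableSet_closedBall.nullMeasurableSet
  rw [AddCircle.volume_closedBall] at h
  rw [← h]
  congr 1

lemma count_circle (q q' : ℕ) (hq : 0 < q) (hq' : 0 < q') (c x : UnitAddCircle) (ε : ℝ)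
    (hε : 0 ≤ ε) :
    (((Finset.range q').filter
      (fun j : ℕ => x + j • (((1 / q' : ℝ) : ℝ) : UnitAddCircle) ∈ Ev q c ε)).card : ℝ)
      ≤ 2 * ε * q' + Nat.gcd q q' := by
  obtain ⟨t0, ht0⟩ : ∃ t0 : ℝ, (t0 : UnitAddCircle) = q • x - c :=
    QuotientAddGroup.mk_surjective _
  refine le_trans ?_ (count_real q q' hq hq' t0 ε hε)
  have : (Finset.range q').filter
      (fun j : ℕ => x + j • (((1 / q' : ℝ) : ℝ) : UnitAddCircle) ∈ Ev q c ε) ⊆
      (Finset.range q').filter
      (fun j : ℕ => ∃ a : ℤ, |t0 + (j : ℝ) * q / q' - a| ≤ ε) := by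
    intro j hj
    rw [Finset.mem_filter] at hj ⊢
    refine ⟨hj.1, ?_⟩
    have h2 := hj.2
    simp only [Ev, Set.mem_ofPred_eq, Metric.mem_closedBall, dist_eq_norm] at h2
    have e : q • (x + j • (((1 / q' : ℝ) : ℝ) : UnitAddCircle)) - c
        = ((t0 + (j : ℝ) * q / q' : ℝ) : UnitAddCircle) := by
      rw [AddCircle.coe_add, ht0, smul_add, smul_smul]
      have : ((q * j) • (((1 / q' : ℝ) : ℝ) : UnitAddCircle))
          = (((j : ℝ) * q / q' : ℝ) : UnitAddCircle) := by
        rw [← AddCircle.coe_nsmul]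
        congr 1
        simp only [nsmul_eq_mul]
        push_cast
        ring
      rw [this]
      abel
    rw [e, UnitAddCircle.norm_eq] at h2
    exact ⟨_, h2⟩
  exact_mod_cast Finset.card_le_card this

lemma Ev_add_iff (q' : ℕ) (hq' : 0 < q') (c' : UnitAddCircle) (ε' : ℝ) (x : UnitAddCircle)
    (j : ℕ) :
    x + j • (((1 / q' : ℝ) : ℝ) : UnitAddCircle) ∈ Ev q' c' ε' ↔ x ∈ Ev q' c' ε' := by
  have h0 : q' • (j • (((1 / q' : ℝ) : ℝ) : UnitAddCircle)) = 0 := by
    rw [smul_smul, ← AddCircle.coe_nsmul]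
    have : ((q' * j) • (1 / q' : ℝ) : ℝ) = ((j : ℤ) : ℝ) * 1 := by
      have hq'R : (q' : ℝ) ≠ 0 := by exact_mod_cast hq'.ne'
      simp only [nsmul_eq_mul]
      push_cast
      field_simp
    rw [this]
    have := AddCircle.coe_period (1 : ℝ)
    rw [← zsmul_eq_mul, AddCircle.coe_zsmul, this, smul_zero]
  simp only [Ev, Set.mem_ofPred_eq, smul_add, h0, add_zero]

lemma pair_bound (q q' : ℕ) (hq : 0 < q) (hq' : 0 < q') (c c' : UnitAddCircle) (ε ε' : ℝ)
    (hε : 0 ≤ ε) :
    (q' : ℝ≥0∞) * volume (Ev q c ε ∩ Ev q' c' ε')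
      ≤ ENNReal.ofReal (2 * ε * q' + Nat.gcd q q') * volume (Ev q' c' ε') := by
  set u : UnitAddCircle := (((1 / q' : ℝ) : ℝ) : UnitAddCircle) with hu
  set E' := Ev q' c' ε' with hE'
  let T : ℕ → Set UnitAddCircle := fun j => {x | x + j • u ∈ Ev q c ε}
  have hT : ∀ j, MeasurableSet (T j) := by
    intro j
    have : Measurable fun x : UnitAddCircle => x + j • u := measurable_add_const _
    exact this (measurableSet_Ev q c ε)
  have h1 : ∀ j : ℕ, volume (Ev q c ε ∩ E') = (volume.restrict E') (T j) := by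
    intro j
    rw [Measure.restrict_apply (hT j)]
    rw [← measure_preimage_add_right volume (j • u) (Ev q c ε ∩ E')]
    congr 1
    ext x
    simp only [Set.mem_preimage, Set.mem_inter_iff, T, Set.mem_ofPred_eq]
    rw [hE', Ev_add_iff q' hq' c' ε' x j]
  have h2 : (q' : ℝ≥0∞) * volume (Ev q c ε ∩ E')
      = ∑ j ∈ Finset.range q', (volume.restrict E') (T j) := by
    rw [Finset.sum_congr rfl (fun j _ => (h1 j).symm)]
    simp
  rw [h2]
  have h3 : ∑ j ∈ Finset.range q', (volume.restrict E') (T j)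
      = ∫⁻ x, ∑ j ∈ Finset.range q', (T j).indicator 1 x ∂(volume.restrict E') := by
    rw [lintegral_finsetSum]
    · apply Finset.sum_congr rfl
      intro j _
      rw [lintegral_indicator_one (hT j)]
    · intro j _
      exact measurable_one.indicator (hT j)
  rw [h3]
  calc ∫⁻ x, ∑ j ∈ Finset.range q', (T j).indicator 1 x ∂(volume.restrict E')
      ≤ ∫⁻ _x, ENNReal.ofReal (2 * ε * q' + Nat.gcd q q') ∂(volume.restrict E') := by
        apply lintegral_mono
        intro x
        have hcnt := count_circle q q' hq hq' c x ε hε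
        have : ∑ j ∈ Finset.range q', (T j).indicator (1 : UnitAddCircle → ℝ≥0∞) x
            = (((Finset.range q').filter (fun j : ℕ => x + j • u ∈ Ev q c ε)).card : ℝ≥0∞) := by
          rw [Finset.card_filter]
          push_cast
          apply Finset.sum_congr rfl
          intro j _
          simp only [Set.indicator, T, Set.mem_ofPred_eq, Pi.one_apply]
        simp only
        rw [this, ← ENNReal.ofReal_natCast]
        exact ENNReal.ofReal_le_ofReal hcnt
    _ = ENNReal.ofReal (2 * ε * q' + Nat.gcd q q') * volume E' := by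
        rw [lintegral_const, Measure.restrict_apply MeasurableSet.univ, Set.univ_inter]

end Vale.Agent.P028
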