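import Vale.Agent.P028.Moment

namespace Vale.Agent.P028

open Finset MeasureTheory
open scoped Classical ENNReal

lemma real_Ev (q : ℕ) (hq : 0 < q) (c : UnitAddCircle) (v : ℝ) (h0 : 0 ≤ v) (h1 : v ≤ 1) :
    (volume : Measure UnitAddCircle).real (Ev q c (v / 2)) = v := by
  rw [Measure.real, volume_Ev q hq]
  have : min 1 (2 * (v / 2)) = v := by
    rw [show 2 * (v / 2) = v by ring]
    exact min_eq_right h1
  rw [this, ENNReal.toReal_ofReal h0]

lemma pair_real (q q' : ℕ) (hq : 0 < q) (hq' : 0 < q') (c c' : UnitAddCircle) (v v' : ℝ)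
    (h0 : 0 ≤ v) (h0' : 0 ≤ v') (h1' : v' ≤ 1) :
    (volume : Measure UnitAddCircle).real (Ev q c (v / 2) ∩ Ev q' c' (v' / 2))
      ≤ v * v' + (Nat.gcd q q' : ℝ) * v' / q' := by
  have h := pair_bound q q' hq hq' c c' (v / 2) (v' / 2) (by linarith)
  have hq'R : (0 : ℝ) < q' := by exact_mod_cast hq'
  have hnn : (0 : ℝ) ≤ 2 * (v / 2) * q' + Nat.gcd q q' := by positivity
  have h2 := ENNReal.toReal_mono (by
    apply ENNReal.mul_ne_top ENNReal.ofReal_ne_top (measure_ne_top _ _)) h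
  rw [ENNReal.toReal_mul, ENNReal.toReal_mul, ENNReal.toReal_natCast,
    ENNReal.toReal_ofReal hnn] at h2
  have h3 := real_Ev q' hq' c' v' h0' h1'
  rw [Measure.real] at h3
  rw [h3] at h2
  rw [Measure.real]
  have e : v * v' + (Nat.gcd q q' : ℝ) * v' / q' = ((2 * (v / 2) * q' + Nat.gcd q q') * v') / q' := by
    field_simp
  rw [e, le_div_iff₀ hq'R]
  linarith

/-- the double sum bound -/
lemma double_sum (w : ℕ → ℝ) (hw0 : ∀ q, 0 ≤ w q) (hw1 : ∀ q, w q ≤ 1) (c : ℕ → UnitAddCircle)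
    (T : Finset ℕ) (hT : ∀ q ∈ T, 0 < q) (C : ℝ)
    (hC : ∀ j ∈ T, ∑ i ∈ T.filter (fun i => i < j), (Nat.gcd i j : ℝ) ≤ C * j) :
    ∑ i ∈ T, ∑ j ∈ T, (volume : Measure UnitAddCircle).real
        (Ev i (c i) (w i / 2) ∩ Ev j (c j) (w j / 2))
      ≤ (∑ i ∈ T, w i) ^ 2 + (1 + 2 * C) * ∑ i ∈ T, w i := by
  let A : ℕ → ℕ → ℝ := fun i j => if i < j then (Nat.gcd i j : ℝ) * w j / j else 0
  have hA : ∀ j ∈ T, ∑ i ∈ T, A i j ≤ C * w j := by
    intro j hj
    have hjR : (0 : ℝ) < j := by exact_mod_cast hT j hj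
    simp only [A]
    rw [← Finset.sum_filter]
    have : ∑ i ∈ T.filter (fun i => i < j), (Nat.gcd i j : ℝ) * w j / j
        = (∑ i ∈ T.filter (fun i => i < j), (Nat.gcd i j : ℝ)) * (w j / j) := by
      rw [Finset.sum_mul]
      apply Finset.sum_congr rfl
      intro i _
      ring
    rw [this]
    calc (∑ i ∈ T.filter (fun i => i < j), (Nat.gcd i j : ℝ)) * (w j / j)
        ≤ (C * j) * (w j / j) :=
          mul_le_mul_of_nonneg_right (hC j hj) (div_nonneg (hw0 j) hjR.le)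
      _ = C * w j := by field_simp
  have hb : ∀ i ∈ T, ∀ j ∈ T, (volume : Measure UnitAddCircle).real
        (Ev i (c i) (w i / 2) ∩ Ev j (c j) (w j / 2))
      ≤ w i * w j + A i j + A j i + (if i = j then w i else 0) := by
    intro i hi j hj
    have hA0 : ∀ a b, 0 ≤ A a b := by
      intro a b
      simp only [A]
      split_ifs
      · exact div_nonneg (mul_nonneg (Nat.cast_nonneg _) (hw0 b)) (Nat.cast_nonneg _)
      · exact le_refl _
    rcases lt_trichotomy i j with h | h | h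
    · have := pair_real i j (hT i hi) (hT j hj) (c i) (c j) (w i) (w j) (hw0 i) (hw0 j) (hw1 j)
      have e1 : A i j = (Nat.gcd i j : ℝ) * w j / j := by simp only [A, if_pos h]
      have e2 : (if i = j then w i else 0) = 0 := if_neg h.ne
      rw [e1, e2]
      linarith [hA0 j i]
    · subst h
      rw [Set.inter_self, real_Ev i (hT i hi) (c i) (w i) (hw0 i) (hw1 i), if_pos rfl]
      nlinarith [hA0 i i, hw0 i]
    · have := pair_real j i (hT j hj) (hT i hi) (c j) (c i) (w j) (w i) (hw0 j) (hw0 i) (hw1 i)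
      rw [Set.inter_comm] at this
      have e1 : A j i = (Nat.gcd j i : ℝ) * w i / i := by simp only [A, if_pos h]
      have e2 : (if i = j then w i else 0) = 0 := if_neg h.ne'
      rw [e1, e2]
      linarith [hA0 i j]
  calc ∑ i ∈ T, ∑ j ∈ T, (volume : Measure UnitAddCircle).real
        (Ev i (c i) (w i / 2) ∩ Ev j (c j) (w j / 2))
      ≤ ∑ i ∈ T, ∑ j ∈ T, (w i * w j + A i j + A j i + (if i = j then w i else 0)) :=
        Finset.sum_le_sum (fun i hi => Finset.sum_le_sum (fun j hj => hb i hi j hj))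
    _ = (∑ i ∈ T, w i) ^ 2 + ∑ j ∈ T, ∑ i ∈ T, A i j + ∑ i ∈ T, ∑ j ∈ T, A j i
          + ∑ i ∈ T, w i := by
        simp only [Finset.sum_add_distrib]
        rw [sq, Finset.sum_mul_sum]
        congr 1
        · congr 1
          congr 1
          exact Finset.sum_comm
        · apply Finset.sum_congr rfl
          intro i hi
          rw [Finset.sum_ite_eq]
          simp [hi]
    _ ≤ (∑ i ∈ T, w i) ^ 2 + ∑ j ∈ T, C * w j + ∑ i ∈ T, C * w i + ∑ i ∈ T, w i := by
        have h1 := Finset.sum_le_sum hA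
        linarith
    _ = (∑ i ∈ T, w i) ^ 2 + (1 + 2 * C) * ∑ i ∈ T, w i := by
        rw [← Finset.mul_sum]
        ring

end Vale.Agent.P028
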